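import Vale.Agent.P091.Basic

/-!
# Covering the circle by translates of a set of positive measure
-/

open MeasureTheory AddCircle Filter Topology

namespace Vale.Agent.P091

variable {T : ℝ} [hT : Fact (0 < T)]

lemma exists_translate_inter_le {B D : Set (AddCircle T)} (hB : MeasurableSet B)
    (hD : MeasurableSet D) :
    ∃ y : AddCircle T, (haarAddCircle : Measure (AddCircle T)) (B ∩ {x | x - y ∈ D})
      ≤ haarAddCircle B * haarAddCircle D := by
  set μ : Measure (AddCircle T) := haarAddCircle with hμ
  have hmeasD : Measurable (fun p : AddCircle T × AddCircle T => D.indicator (1 : AddCircle T → ENNReal) (p.2 - p.1)) :=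
    (measurable_one.indicator hD).comp (measurable_snd.sub measurable_fst)
  have hmeasB : Measurable (fun p : AddCircle T × AddCircle T => B.indicator (1 : AddCircle T → ENNReal) p.2) :=
    (measurable_one.indicator hB).comp measurable_snd
  have hf : ∀ y, μ (B ∩ {x | x - y ∈ D})
      = ∫⁻ x, B.indicator (1 : AddCircle T → ENNReal) x * D.indicator (1 : AddCircle T → ENNReal) (x - y) ∂μ := by
    intro y
    have hm : MeasurableSet (B ∩ {x | x - y ∈ D}) :=
      hB.inter ((measurable_id.sub_const y) hD)
    rw [← lintegral_indicator_one hm]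
    congr 1
    ext x
    by_cases h1 : x ∈ B <;> by_cases h2 : x - y ∈ D <;> simp [Set.indicator, h1, h2]
  have hmeas : Measurable (fun y => μ (B ∩ {x | x - y ∈ D})) := by
    simp only [hf]
    exact (hmeasB.mul hmeasD).lintegral_prod_right'
  obtain ⟨y, hy⟩ := exists_le_lintegral (μ := μ) hmeas.aemeasurable
  refine ⟨y, hy.trans (le_of_eq ?_)⟩
  simp only [hf]
  rw [lintegral_lintegral_swap (hmeasB.mul hmeasD).aemeasurable]
  have : ∀ x, ∫⁻ y, B.indicator (1 : AddCircle T → ENNReal) x * D.indicator (1 : AddCircle T → ENNReal) (x - y) ∂μ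
      = B.indicator (1 : AddCircle T → ENNReal) x * μ D := by
    intro x
    rw [lintegral_const_mul' _ _ (by by_cases h1 : x ∈ B <;> simp [Set.indicator, h1]),
      lintegral_sub_left_eq_self (fun z => D.indicator (1 : AddCircle T → ENNReal) z) x,
      lintegral_indicator_one hD]
  simp only [this]
  rw [lintegral_mul_const _ (measurable_one.indicator hB), lintegral_indicator_one hB]

/-- `k` suitable translates of `E` leave at most `(μ Eᶜ)^k` uncovered. -/
lemma exists_translates {E : Set (AddCircle T)} (hE : MeasurableSet E) (k : ℕ) :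
    ∃ y : ℕ → AddCircle T,
      (haarAddCircle : Measure (AddCircle T)) {x | ∀ j < k, x - y j ∉ E}
        ≤ (haarAddCircle Eᶜ) ^ k := by
  classical
  induction k with
  | zero => exact ⟨fun _ => 0, by simp⟩
  | succ k ih =>
    obtain ⟨y, hy⟩ := ih
    have hB : MeasurableSet {x : AddCircle T | ∀ j < k, x - y j ∉ E} := by
      have : {x : AddCircle T | ∀ j < k, x - y j ∉ E}
          = ⋂ j ∈ Finset.range k, {x | x - y j ∈ Eᶜ} := by
        ext x; simp
      rw [this]
      exact Finset.measurableSet_biInter _ fun j _ => (measurable_id.sub_const (y j)) hE.compl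
    obtain ⟨y', hy'⟩ := exists_translate_inter_le hB hE.compl
    refine ⟨Function.update y k y', ?_⟩
    have hset : {x : AddCircle T | ∀ j < k + 1, x - Function.update y k y' j ∉ E}
        = {x | ∀ j < k, x - y j ∉ E} ∩ {x | x - y' ∈ Eᶜ} := by
      ext x
      simp only [Set.mem_ofPred_eq, Set.mem_inter_iff, Set.mem_compl_iff]
      constructor
      · intro h
        refine ⟨fun j hj => ?_, ?_⟩
        · have := h j (by omega)
          rwa [Function.update_of_ne (by omega)] at this
        · have := h k (by omega)
          rwa [Function.update_self] at this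
      · rintro ⟨h1, h2⟩ j hj
        rcases Nat.lt_succ_iff_lt_or_eq.1 hj with hlt | rfl
        · rw [Function.update_of_ne (by omega)]; exact h1 j hlt
        · rw [Function.update_self]; exact h2
    rw [hset, pow_succ]
    exact hy'.trans (mul_le_mul_left hy _)

end Vale.Agent.P091
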