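import Vale.Agent.P091.Glide
import Vale.Agent.P091.Cover

/-!
# From the failure of the weak-type bound to an almost everywhere unbounded Fourier series
-/

open MeasureTheory AddCircle Filter Topology

namespace Vale.Agent.P091

variable {T : ℝ} [hT : Fact (0 < T)]

lemma measurableSet_exists_lt_fourierSum (f : AddCircle T → ℂ) (θ : ℝ) :
    MeasurableSet {x : AddCircle T | ∃ N, θ < ‖fourierSum f N x‖} := by
  have : {x : AddCircle T | ∃ N, θ < ‖fourierSum f N x‖}
      = ⋃ N, {x | θ < ‖fourierSum f N x‖} := by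
    ext x; simp
  rw [this]
  exact MeasurableSet.iUnion fun N =>
    (isOpen_lt continuous_const (continuous_fourierSum f N).norm).measurableSet

lemma one_sub_pow_le_half_pow {δ : ℝ} (h1 : δ ≤ 1) (k n : ℕ) (hk : (n : ℝ) ≤ k * δ) :
    (1 - δ) ^ k ≤ (1 / 2 : ℝ) ^ n := by
  have e1 : (1 - δ) ^ k ≤ Real.exp (-δ) ^ k :=
    pow_le_pow_left₀ (by linarith) (Real.one_sub_le_exp_neg δ) k
  have e2 : Real.exp (-δ) ^ k = Real.exp (-(k * δ)) := by
    rw [← Real.exp_nat_mul]; congr 1; ring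
  have e3 : Real.exp (-(k * δ)) ≤ Real.exp (-(n : ℝ)) := Real.exp_le_exp.2 (by linarith)
  have e4 : Real.exp (-(n : ℝ)) = (Real.exp (-1)) ^ n := by
    rw [← Real.exp_nat_mul]; congr 1; ring
  have e5 : Real.exp (-1) ≤ 1 / 2 := by
    rw [Real.exp_neg, one_div]
    apply inv_anti₀ (by norm_num)
    have := Real.add_one_le_exp (1 : ℝ)
    linarith
  calc (1 - δ) ^ k ≤ Real.exp (-δ) ^ k := e1
    _ = Real.exp (-(k * δ)) := e2
    _ ≤ Real.exp (-(n : ℝ)) := e3
    _ = (Real.exp (-1)) ^ n := e4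
    _ ≤ (1 / 2 : ℝ) ^ n := pow_le_pow_left₀ (Real.exp_pos _).le e5 n

theorem exists_unbounded
    (H : ∀ C : ℝ, ∃ (u : AddCircle T → ℂ) (d : ℕ) (θ : ℝ), Continuous u ∧
      (∀ k : ℤ, (d : ℤ) < |k| → fourierCoeff u k = 0) ∧
      ∫ x, Phi ‖u x‖ ∂haarAddCircle ≤ 1 ∧ 0 < θ ∧
      C < θ * (haarAddCircle : Measure (AddCircle T)).real {x | ∃ N, θ < ‖fourierSum u N x‖}) :
    ∃ F : AddCircle T → ℂ, MemLlogL F ∧
      ∀ᵐ x ∂haarAddCircle, ∀ R : ℝ, ∃ N, R < ‖fourierSum F N x‖ := by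
  classical
  set μ : Measure (AddCircle T) := haarAddCircle with hμ
  choose u d θ hu hband hmod hθ hC using
    fun n : ℕ => H (4 * n * (n + 1) * 2 ^ (n + 1))
  set E : ℕ → Set (AddCircle T) := fun n => {x | ∃ N, θ n < ‖fourierSum (u n) N x‖} with hE
  have hEm : ∀ n, MeasurableSet (E n) := fun n => measurableSet_exists_lt_fourierSum _ _
  set δ : ℕ → ℝ := fun n => μ.real (E n) with hδ
  have hδ1 : ∀ n, δ n ≤ 1 := fun n => measureReal_le_one
  have hδ0 : ∀ n, 0 < δ n := by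
    intro n
    have h1 : (0 : ℝ) ≤ 4 * n * (n + 1) * 2 ^ (n + 1) := by positivity
    have h2 : 0 < θ n * δ n := lt_of_le_of_lt h1 (hC n)
    exact (pos_iff_pos_of_mul_pos h2).1 (hθ n)
  set k : ℕ → ℕ := fun n => ⌈(n : ℝ) / δ n⌉₊ with hk
  have hk1 : ∀ n : ℕ, (n : ℝ) ≤ k n * δ n := by
    intro n
    have := Nat.le_ceil ((n : ℝ) / δ n)
    rwa [div_le_iff₀ (hδ0 n)] at this
  have hk2 : ∀ n : ℕ, (k n : ℝ) * δ n ≤ n + 1 := by
    intro n
    have h := (Nat.ceil_lt_add_one (a := (n : ℝ) / δ n) (by have := hδ0 n; positivity)).le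
    calc (k n : ℝ) * δ n ≤ ((n : ℝ) / δ n + 1) * δ n :=
          mul_le_mul_of_nonneg_right h (hδ0 n).le
      _ = n + δ n := by field_simp [(hδ0 n).ne']
      _ ≤ n + 1 := by linarith [hδ1 n]
  choose y hy using fun n => exists_translates (hEm n) (k n)
  set W : ℕ → Set (AddCircle T) := fun n => {x | ∀ j < k n, x - y n j ∉ E n} with hW
  have hWle : ∀ n, μ (W n) ≤ ENNReal.ofReal ((1 / 2 : ℝ) ^ n) := by
    intro n
    refine (hy n).trans ?_
    have h1 : μ (E n)ᶜ = ENNReal.ofReal (1 - δ n) := by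
      rw [← probReal_compl_eq_one_sub (hEm n), ofReal_measureReal]
    rw [h1, ← ENNReal.ofReal_pow (by linarith [hδ1 n])]
    exact ENNReal.ofReal_le_ofReal (one_sub_pow_le_half_pow (hδ1 n) _ _ (hk1 n))
  set c : ℕ → ℝ := fun n => 4 * n / θ n with hc
  have hc0 : ∀ n, 0 ≤ c n := fun n => by have := hθ n; positivity
  have hkc : ∀ n, (k n : ℝ) * c n ≤ 1 / 2 / 2 ^ n := by
    intro n
    have hpos : 0 < θ n * δ n := mul_pos (hθ n) (hδ0 n)
    have e1 : (k n : ℝ) * c n = ((k n : ℝ) * δ n) * (4 * n) / (θ n * δ n) := by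
      rw [hc]; field_simp [(hθ n).ne', (hδ0 n).ne']
    rw [e1, div_le_iff₀ hpos]
    have e2 : ((k n : ℝ) * δ n) * (4 * n) ≤ (n + 1) * (4 * n) :=
      mul_le_mul_of_nonneg_right (hk2 n) (by positivity)
    have e3 : (1 : ℝ) / 2 / 2 ^ n * (4 * n * (n + 1) * 2 ^ (n + 1)) = (n + 1) * (4 * n) := by
      rw [pow_succ]; field_simp
    have e4 : (1 : ℝ) / 2 / 2 ^ n * (4 * n * (n + 1) * 2 ^ (n + 1))
        ≤ 1 / 2 / 2 ^ n * (θ n * δ n) :=
      mul_le_mul_of_nonneg_left (hC n).le (by positivity)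
    linarith
  -- flattening
  set g : ℕ × ℕ → ℝ := fun p => if p.2 < k p.1 then c p.1 else 0 with hg
  have hg0 : 0 ≤ g := fun p => by
    simp only [hg, Pi.zero_apply]; split_ifs
    · exact hc0 _
    · exact le_rfl
  have hgrow : ∀ n, HasSum (fun j => g (n, j)) ((k n : ℝ) * c n) := by
    intro n
    have h1 : HasSum (fun j => g (n, j)) (∑ j ∈ Finset.range (k n), g (n, j)) :=
      hasSum_sum_of_ne_finset_zero fun j hj => by
        simp only [Finset.mem_range] at hj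
        simp [hg, hj]
    have h2 : ∑ j ∈ Finset.range (k n), g (n, j) = (k n : ℝ) * c n := by
      rw [Finset.sum_congr rfl (g := fun _ => c n)]
      · simp
      · intro j hj
        simp only [Finset.mem_range] at hj
        simp [hg, hj]
    rwa [h2] at h1
  have hsum2 : Summable (fun n => (k n : ℝ) * c n) :=
    Summable.of_nonneg_of_le (fun n => mul_nonneg (Nat.cast_nonneg _) (hc0 n)) hkc
      (hasSum_geometric_two' 1).summable
  have hgs : Summable g := by
    rw [summable_prod_of_nonneg hg0]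
    refine ⟨fun n => (hgrow n).summable, ?_⟩
    simp only [fun n => (hgrow n).tsum_eq]
    exact hsum2
  have hgt : ∑' p, g p ≤ 1 := by
    rw [hgs.tsum_prod]
    simp only [fun n => (hgrow n).tsum_eq]
    calc ∑' n, (k n : ℝ) * c n ≤ ∑' n : ℕ, (1 : ℝ) / 2 / 2 ^ n :=
          hsum2.tsum_le_tsum hkc (hasSum_geometric_two' 1).summable
      _ = 1 := (hasSum_geometric_two' 1).tsum_eq
  set c' : ℕ → ℝ := fun m => g (Nat.unpair m) with hc'
  have hc's : Summable c' := by
    have := (Equiv.summable_iff Nat.pairEquiv.symm (f := g)).2 hgs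
    simpa [hc', Function.comp_def] using this
  have hc't : ∑' m, c' m ≤ 1 := by
    have := Equiv.tsum_eq Nat.pairEquiv.symm g
    simp only [Nat.pairEquiv_symm_apply] at this
    rw [hc', this]
    exact hgt
  obtain ⟨F, hF, hglide⟩ := exists_glide
    (fun m x => u (Nat.unpair m).1 (x - y (Nat.unpair m).1 (Nat.unpair m).2))
    (fun m => d (Nat.unpair m).1) c'
    (fun m => (hu _).comp (continuous_id.sub continuous_const))
    (fun m κ hκ => by rw [fourierCoeff_translate, hband _ κ hκ, mul_zero])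
    (fun m => by
      rw [integral_sub_right_eq_self (fun x => Phi ‖u (Nat.unpair m).1 x‖)]
      exact hmod _)
    (fun m => hg0 _) hc's hc't
  refine ⟨F, hF, ?_⟩
  have hBC : ∑' n, μ (W n) ≠ ⊤ := by
    refine ne_top_of_le_ne_top ?_ (ENNReal.tsum_le_tsum hWle)
    rw [← ENNReal.ofReal_tsum_of_nonneg (fun n => by positivity) summable_geometric_two]
    exact ENNReal.ofReal_ne_top
  filter_upwards [ae_eventually_notMem hBC] with x hx R
  obtain ⟨n0, hn0⟩ := eventually_atTop.1 hx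
  set n := max n0 (⌈R⌉₊ + 1) with hn
  have hxn : x ∉ W n := hn0 n (le_max_left _ _)
  simp only [hW, Set.mem_ofPred_eq, not_forall, not_not] at hxn
  obtain ⟨j, hj, hxE⟩ := hxn
  obtain ⟨N, hN⟩ := hxE
  obtain ⟨N', hN'⟩ := hglide (Nat.pair n j) N x
  refine ⟨N', ?_⟩
  simp only [fourierSum_translate, Nat.unpair_pair, hc', hg, hj, if_true] at hN'
  have hnR : R < n := by
    have h1 : R ≤ ⌈R⌉₊ := Nat.le_ceil R
    have h2 : ((⌈R⌉₊ + 1 : ℕ) : ℝ) ≤ n := by exact_mod_cast le_max_right _ _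
    push_cast at h2
    linarith
  have hn0' : (0 : ℝ) < n := by
    have h2 : ((⌈R⌉₊ + 1 : ℕ) : ℝ) ≤ n := by exact_mod_cast le_max_right _ _
    push_cast at h2
    have : (0 : ℝ) ≤ ⌈R⌉₊ := Nat.cast_nonneg _
    linarith
  have h3 : 4 * (n : ℝ) < c n * ‖fourierSum (u n) N (x - y n j)‖ := by
    have : c n * θ n = 4 * n := by rw [hc]; field_simp [(hθ n).ne']
    rw [← this]
    exact mul_lt_mul_of_pos_left hN (by rw [hc]; have := hθ n; positivity)
  linarith

end Vale.Agent.P091
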