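import Vale.Agent.P091.Phi

/-!
# Symmetric Fourier sums and the class `L log L` on the circle
-/

open MeasureTheory AddCircle Filter Topology

namespace Vale.Agent.P091

variable {T : ℝ} [hT : Fact (0 < T)]

/-- The symmetric Fourier sum `S_N f (x) = ∑_{|k| ≤ N} \hat f (k) e^{ikx}`. -/
noncomputable def fourierSum (f : AddCircle T → ℂ) (N : ℕ) (x : AddCircle T) : ℂ :=
  ∑ k ∈ Finset.Icc (-(N : ℤ)) N, fourierCoeff f k * fourier k x

/-- The Orlicz class `L log L`. -/
def MemLlogL (f : AddCircle T → ℂ) : Prop :=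
  AEStronglyMeasurable f haarAddCircle ∧ Integrable (fun x => Phi ‖f x‖) haarAddCircle

lemma norm_fourier_apply (k : ℤ) (x : AddCircle T) : ‖fourier k x‖ = 1 := by
  rw [fourier_apply]; exact Circle.norm_coe _

lemma fourier_apply_add (k : ℤ) (x y : AddCircle T) :
    fourier k (x + y) = fourier k x * fourier k y := by
  simp only [fourier_apply, smul_add, toCircle_add, Circle.coe_mul]

lemma fourier_apply_sub (k : ℤ) (x y : AddCircle T) :
    fourier k (x - y) = fourier k x * fourier (-k) y := by
  rw [sub_eq_add_neg, fourier_apply_add]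
  congr 1
  simp only [fourier_apply, smul_neg, neg_smul]

lemma MemLlogL.integrable {f : AddCircle T → ℂ} (hf : MemLlogL f) :
    Integrable f haarAddCircle := by
  have hl2 : 0 < Real.log 2 := Real.log_pos (by norm_num)
  refine Integrable.mono' (hf.2.div_const (Real.log 2)) hf.1 (Eventually.of_forall fun x => ?_)
  rw [le_div_iff₀ hl2]
  exact mul_log_two_le_Phi (norm_nonneg _)

lemma integral_norm_le_of_Phi {f : AddCircle T → ℂ} (hf : MemLlogL f) :
    ∫ x, ‖f x‖ ∂haarAddCircle ≤ (∫ x, Phi ‖f x‖ ∂haarAddCircle) / Real.log 2 := by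
  have hl2 : 0 < Real.log 2 := Real.log_pos (by norm_num)
  rw [le_div_iff₀ hl2, ← integral_mul_const]
  exact integral_mono (hf.integrable.norm.mul_const _) hf.2
    (fun x => mul_log_two_le_Phi (norm_nonneg _))

lemma norm_fourierCoeff_le (f : AddCircle T → ℂ) (k : ℤ) :
    ‖fourierCoeff f k‖ ≤ ∫ x, ‖f x‖ ∂haarAddCircle := by
  unfold fourierCoeff
  refine (norm_integral_le_integral_norm _).trans (le_of_eq ?_)
  congr 1
  ext x
  rw [norm_smul, norm_fourier_apply, one_mul]

lemma norm_fourierSum_le (f : AddCircle T → ℂ) (N : ℕ) (x : AddCircle T) :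
    ‖fourierSum f N x‖ ≤ (2 * N + 1) * ∫ x, ‖f x‖ ∂haarAddCircle := by
  unfold fourierSum
  refine (norm_sum_le _ _).trans ?_
  have : ∀ k ∈ Finset.Icc (-(N : ℤ)) N, ‖fourierCoeff f k * fourier k x‖
      ≤ ∫ x, ‖f x‖ ∂haarAddCircle := by
    intro k _
    rw [norm_mul, norm_fourier_apply, mul_one]
    exact norm_fourierCoeff_le f k
  refine (Finset.sum_le_card_nsmul _ _ _ this).trans (le_of_eq ?_)
  rw [Int.card_Icc, nsmul_eq_mul]
  congr 1
  have : ((N : ℤ) + 1 - -(N : ℤ)).toNat = 2 * N + 1 := by omega
  rw [this]; push_cast; ring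

lemma fourierCoeff_translate (f : AddCircle T → ℂ) (y : AddCircle T) (k : ℤ) :
    fourierCoeff (fun x => f (x - y)) k = fourier (-k) y * fourierCoeff f k := by
  unfold fourierCoeff
  rw [← integral_sub_right_eq_self (fun t => fourier (-k) t • f t) y, ← integral_const_mul]
  congr 1
  ext t
  have : fourier (-k) t = fourier (-k) y * fourier (-k) (t - y) := by
    rw [← fourier_apply_add]; congr 1; abel
  rw [this, smul_eq_mul, smul_eq_mul, mul_assoc]

lemma fourierCoeff_modulate (f : AddCircle T → ℂ) (M k : ℤ) :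
    fourierCoeff (fun x => fourier M x * f x) k = fourierCoeff f (k - M) := by
  unfold fourierCoeff
  congr 1
  ext t
  rw [smul_eq_mul, smul_eq_mul, ← mul_assoc, ← fourier_add]
  congr 3
  ring

lemma fourierSum_translate (f : AddCircle T → ℂ) (y : AddCircle T) (N : ℕ) (x : AddCircle T) :
    fourierSum (fun x => f (x - y)) N x = fourierSum f N (x - y) := by
  unfold fourierSum
  refine Finset.sum_congr rfl fun k _ => ?_
  rw [fourierCoeff_translate, fourier_apply_sub]
  ring

lemma fourierSum_const_mul (f : AddCircle T → ℂ) (c : ℂ) (N : ℕ) (x : AddCircle T) :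
    fourierSum (fun x => c * f x) N x = c * fourierSum f N x := by
  unfold fourierSum
  rw [Finset.mul_sum]
  refine Finset.sum_congr rfl fun k _ => ?_
  have : fourierCoeff (fun x => c * f x) k = c * fourierCoeff f k :=
    fourierCoeff.const_mul f c k
  rw [this, mul_assoc]

lemma fourierCoeff_sub' {f g : AddCircle T → ℂ} (hf : Integrable f haarAddCircle)
    (hg : Integrable g haarAddCircle) (k : ℤ) :
    fourierCoeff (fun x => f x - g x) k = fourierCoeff f k - fourierCoeff g k := by
  unfold fourierCoeff
  rw [← integral_sub (hf.fourier_smul _) (hg.fourier_smul _)]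
  congr 1
  ext t
  rw [smul_sub]

lemma fourierSum_sub {f g : AddCircle T → ℂ} (hf : Integrable f haarAddCircle)
    (hg : Integrable g haarAddCircle) (N : ℕ) (x : AddCircle T) :
    fourierSum (fun x => f x - g x) N x = fourierSum f N x - fourierSum g N x := by
  unfold fourierSum
  rw [← Finset.sum_sub_distrib]
  refine Finset.sum_congr rfl fun k _ => ?_
  rw [fourierCoeff_sub' hf hg, sub_mul]

lemma fourierSum_congr_ae {f g : AddCircle T → ℂ} (h : f =ᵐ[haarAddCircle] g) (N : ℕ)
    (x : AddCircle T) : fourierSum f N x = fourierSum g N x := by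
  unfold fourierSum
  rw [fourierCoeff_congr_ae h]

lemma continuous_fourierSum (f : AddCircle T → ℂ) (N : ℕ) : Continuous (fourierSum f N) := by
  unfold fourierSum
  exact continuous_finsetSum _ fun k _ => continuous_const.mul (fourier k).continuous

/-- An explicit trigonometric polynomial. -/
noncomputable def trigPoly (s : Finset ℤ) (a : ℤ → ℂ) (x : AddCircle T) : ℂ :=
  ∑ k ∈ s, a k * fourier k x

lemma continuous_trigPoly (s : Finset ℤ) (a : ℤ → ℂ) :
    Continuous (trigPoly s a : AddCircle T → ℂ) := by
  unfold trigPoly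
  exact continuous_finsetSum _ fun k _ => continuous_const.mul (fourier k).continuous

lemma integrable_of_continuous {f : AddCircle T → ℂ} (hf : Continuous f) :
    Integrable f haarAddCircle := by
  simpa using hf.continuousOn.integrableOn_compact (μ := haarAddCircle) isCompact_univ

lemma fourierCoeff_trigPoly (s : Finset ℤ) (a : ℤ → ℂ) (k : ℤ) :
    fourierCoeff (trigPoly s a : AddCircle T → ℂ) k = if k ∈ s then a k else 0 := by
  classical
  have h1 : (trigPoly s a : AddCircle T → ℂ) = ∑ j ∈ s, (a j • (fourier j : AddCircle T → ℂ)) := by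
    ext x
    simp [trigPoly, Finset.sum_apply]
  rw [h1, fourierCoeff.sum]
  · simp only [Finset.sum_apply, fourierCoeff.const_smul, fourierCoeff_fourier, smul_eq_mul,
      Pi.single_apply, mul_ite, mul_one, mul_zero]
    rw [Finset.sum_ite_eq]
  · intro j _
    exact integrable_of_continuous (continuous_const.smul (fourier j).continuous)

lemma fourierSum_trigPoly (s : Finset ℤ) (a : ℤ → ℂ) (N : ℕ)
    (hN : s ⊆ Finset.Icc (-(N : ℤ)) N) (x : AddCircle T) :
    fourierSum (trigPoly s a) N x = trigPoly s a x := by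
  classical
  unfold fourierSum
  simp only [fourierCoeff_trigPoly, ite_mul, zero_mul]
  rw [← Finset.sum_filter, Finset.filter_mem_eq_inter, Finset.inter_eq_right.2 hN]
  rfl

end Vale.Agent.P091
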