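import Vale.Agent.P091.Series

/-!
# Closure properties of the class `L log L`
-/

open MeasureTheory AddCircle Filter Topology

namespace Vale.Agent.P091

variable {T : ℝ} [hT : Fact (0 < T)]

lemma aestronglyMeasurable_Phi_mul_norm {f : AddCircle T → ℂ}
    (hf : AEStronglyMeasurable f (haarAddCircle : Measure (AddCircle T))) (c : ℝ) :
    AEStronglyMeasurable (fun x => Phi (c * ‖f x‖)) (haarAddCircle : Measure (AddCircle T)) :=
  (measurable_Phi.comp_aemeasurable (hf.norm.aemeasurable.const_mul c)).aestronglyMeasurable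

lemma MemLlogL.mono {f g : AddCircle T → ℂ} (hf : MemLlogL f)
    (hg : AEStronglyMeasurable g (haarAddCircle : Measure (AddCircle T)))
    (h : ∀ x, ‖g x‖ ≤ ‖f x‖) : MemLlogL g := by
  refine ⟨hg, hf.2.mono' ?_ (Eventually.of_forall fun x => ?_)⟩
  · simpa using aestronglyMeasurable_Phi_mul_norm hg 1
  · rw [Real.norm_of_nonneg (Phi_nonneg (norm_nonneg _))]
    exact Phi_mono (norm_nonneg _) (h x)

lemma MemLlogL.integrable_Phi_mul {f : AddCircle T → ℂ} (hf : MemLlogL f) {c : ℝ} (hc : 0 ≤ c) :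
    Integrable (fun x => Phi (c * ‖f x‖)) haarAddCircle := by
  set c' := max c 1 with hc'
  have h1 : (1 : ℝ) ≤ c' := le_max_right _ _
  refine (hf.2.const_mul (c' * Real.log c' / Real.log 2 + c')).mono'
    (aestronglyMeasurable_Phi_mul_norm hf.1 c) (Eventually.of_forall fun x => ?_)
  rw [Real.norm_of_nonneg (Phi_nonneg (mul_nonneg hc (norm_nonneg _)))]
  refine (Phi_mono (mul_nonneg hc (norm_nonneg _)) ?_).trans (Phi_mul_le h1 (norm_nonneg _))
  exact mul_le_mul_of_nonneg_right (le_max_left _ _) (norm_nonneg _)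

lemma MemLlogL.integrable_Phi_div {f : AddCircle T → ℂ} (hf : MemLlogL f) {t : ℝ} (ht : 0 ≤ t) :
    Integrable (fun x => Phi (‖f x‖ / t)) haarAddCircle := by
  have := hf.integrable_Phi_mul (inv_nonneg.2 ht)
  refine this.congr (Eventually.of_forall fun x => ?_)
  simp only [div_eq_inv_mul]

lemma MemLlogL.const_mul {f : AddCircle T → ℂ} (hf : MemLlogL f) (c : ℂ) :
    MemLlogL (fun x => c * f x) := by
  refine ⟨hf.1.const_mul c, ?_⟩
  simpa only [norm_mul] using hf.integrable_Phi_mul (norm_nonneg c)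

lemma Phi_norm_sub_le (a b : ℂ) :
    Phi ‖a - b‖ ≤ Phi (2 * ‖a‖) / 2 + Phi (2 * ‖b‖) / 2 := by
  have h1 : ‖a - b‖ ≤ (2 * ‖a‖ + 2 * ‖b‖) / 2 := by
    have := norm_sub_le a b
    linarith
  exact (Phi_mono (norm_nonneg _) h1).trans
    (Phi_half_add_le (by positivity) (by positivity))

lemma MemLlogL.sub {f g : AddCircle T → ℂ} (hf : MemLlogL f) (hg : MemLlogL g) :
    MemLlogL (fun x => f x - g x) := by
  refine ⟨hf.1.sub hg.1, ?_⟩
  have h2 : (0 : ℝ) ≤ 2 := by norm_num
  refine (((hf.integrable_Phi_mul h2).div_const 2).add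
    ((hg.integrable_Phi_mul h2).div_const 2)).mono' ?_ (Eventually.of_forall fun x => ?_)
  · simpa using aestronglyMeasurable_Phi_mul_norm (hf.1.sub hg.1) 1
  · rw [Real.norm_of_nonneg (Phi_nonneg (norm_nonneg _))]
    exact Phi_norm_sub_le _ _

end Vale.Agent.P091
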