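import Vale.Agent.P091.Class

/-!
# Density of trigonometric polynomials in `L log L` (in the modular sense)
-/

open MeasureTheory AddCircle Filter Topology

namespace Vale.Agent.P091

variable {T : ℝ} [hT : Fact (0 < T)]

lemma L2_norm_sq_eq_integral (g : Lp ℂ 2 (haarAddCircle : Measure (AddCircle T))) :
    ‖g‖ ^ 2 = ∫ t, ‖g t‖ ^ 2 ∂haarAddCircle := by
  have H₃ := congr_arg RCLike.re (@L2.inner_def (AddCircle T) ℂ ℂ _ _ _ _ _ g g)
  rw [← integral_re] at H₃
  · simp only [← norm_sq_eq_re_inner] at H₃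
    exact H₃
  · exact L2.integrable_inner g g

/-- `L²` approximation by trigonometric polynomials. -/
lemma exists_trigPoly_L2_close {b : AddCircle T → ℂ}
    (hb : MemLp b 2 (haarAddCircle : Measure (AddCircle T))) {η : ℝ} (hη : 0 < η) :
    ∃ (s : Finset ℤ) (a : ℤ → ℂ), ∫ x, ‖b x - trigPoly s a x‖ ^ 2 ∂haarAddCircle ≤ η := by
  set bL := hb.toLp b with hbL
  have hs := hasSum_fourier_series_L2 bL
  have hη' : 0 < Real.sqrt η := Real.sqrt_pos.2 hη
  obtain ⟨s, hs'⟩ := (Filter.Tendsto.eventually_mem hs (Metric.ball_mem_nhds bL hη')).exists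
  refine ⟨s, fun i => fourierCoeff bL i, ?_⟩
  set a : ℤ → ℂ := fun i => fourierCoeff bL i with ha
  set P : C(AddCircle T, ℂ) := ∑ i ∈ s, a i • fourier i with hP
  have e1 : ∑ i ∈ s, a i • fourierLp 2 i
      = ContinuousMap.toLp 2 (haarAddCircle : Measure (AddCircle T)) ℂ P := by
    rw [hP, map_sum]
    refine Finset.sum_congr rfl fun i _ => ?_
    rw [map_smul]
  have e2 : ∀ x, P x = trigPoly s a x := by
    intro x
    simp [hP, trigPoly, ContinuousMap.sum_apply]
  rw [Metric.mem_ball, dist_comm, dist_eq_norm, e1] at hs'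
  have e3 : ‖bL - ContinuousMap.toLp 2 (haarAddCircle : Measure (AddCircle T)) ℂ P‖ ^ 2
      = ∫ x, ‖b x - trigPoly s a x‖ ^ 2 ∂haarAddCircle := by
    rw [L2_norm_sq_eq_integral]
    refine integral_congr_ae ?_
    filter_upwards [Lp.coeFn_sub bL (ContinuousMap.toLp 2 (haarAddCircle : Measure (AddCircle T)) ℂ P),
      hb.coeFn_toLp, ContinuousMap.coeFn_toLp (𝕜 := ℂ) (p := 2) (haarAddCircle : Measure (AddCircle T)) P]
      with x h1 h2 h3
    rw [h1, Pi.sub_apply, h2, h3, e2]
  rw [← e3]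
  calc ‖bL - ContinuousMap.toLp 2 (haarAddCircle : Measure (AddCircle T)) ℂ P‖ ^ 2
      ≤ (Real.sqrt η) ^ 2 := pow_le_pow_left₀ (norm_nonneg _) hs'.le 2
    _ = η := Real.sq_sqrt hη.le

/-- truncation of a complex number -/
noncomputable def trunc (n : ℕ) (z : ℂ) : ℂ := (Metric.closedBall (0 : ℂ) n).indicator id z

lemma measurable_trunc (n : ℕ) : Measurable (trunc n) :=
  measurable_id.indicator Metric.isClosed_closedBall.measurableSet

lemma norm_trunc_le (n : ℕ) (z : ℂ) : ‖trunc n z‖ ≤ n := by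
  unfold trunc
  by_cases h : z ∈ Metric.closedBall (0 : ℂ) n
  · rw [Set.indicator_of_mem h]; simpa using h
  · rw [Set.indicator_of_notMem h]; simp

lemma norm_sub_trunc_le (n : ℕ) (z : ℂ) : ‖z - trunc n z‖ ≤ ‖z‖ := by
  unfold trunc
  by_cases h : z ∈ Metric.closedBall (0 : ℂ) n
  · rw [Set.indicator_of_mem h]; simp
  · rw [Set.indicator_of_notMem h]; simp

lemma sub_trunc_eq_zero {n : ℕ} {z : ℂ} (h : ‖z‖ ≤ n) : z - trunc n z = 0 := by
  unfold trunc
  rw [Set.indicator_of_mem (by simpa using h)]; simp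

lemma exists_trunc_close {f : AddCircle T → ℂ} (hf : MemLlogL f) {c : ℝ} (hc : 0 ≤ c) :
    ∃ n : ℕ, ∫ x, Phi (c * ‖f x - trunc n (f x)‖) ∂haarAddCircle ≤ 1 := by
  have hmeas : ∀ n, AEStronglyMeasurable (fun x => f x - trunc n (f x))
      (haarAddCircle : Measure (AddCircle T)) := fun n =>
    hf.1.sub ((measurable_trunc n).comp_aemeasurable hf.1.aemeasurable).aestronglyMeasurable
  have key : Tendsto (fun n : ℕ => ∫ x, Phi (c * ‖f x - trunc n (f x)‖) ∂haarAddCircle) atTop
      (𝓝 (∫ _x : AddCircle T, (0 : ℝ) ∂haarAddCircle)) := by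
    refine tendsto_integral_of_dominated_convergence (fun x => Phi (c * ‖f x‖))
      (fun n => aestronglyMeasurable_Phi_mul_norm (hmeas n) c) (hf.integrable_Phi_mul hc)
      (fun n => Eventually.of_forall fun x => ?_) (Eventually.of_forall fun x => ?_)
    · rw [Real.norm_of_nonneg (Phi_nonneg (mul_nonneg hc (norm_nonneg _)))]
      exact Phi_mono (mul_nonneg hc (norm_nonneg _))
        (mul_le_mul_of_nonneg_left (norm_sub_trunc_le n _) hc)
    · refine tendsto_const_nhds.congr' ?_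
      filter_upwards [eventually_ge_atTop ⌈‖f x‖⌉₊] with n hn
      have : ‖f x‖ ≤ n := (Nat.le_ceil _).trans (by exact_mod_cast hn)
      rw [sub_trunc_eq_zero this]; simp
  rw [integral_zero] at key
  exact ((key.eventually (ge_mem_nhds (show (0 : ℝ) < 1 by norm_num))).exists)

/-- **Density**: every `f ∈ L log L` can be approximated by trigonometric polynomials in the
modular sense at every scale `ε`. -/
theorem exists_trigPoly_close {f : AddCircle T → ℂ} (hf : MemLlogL f) {ε : ℝ} (hε : 0 < ε) :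
    ∃ (s : Finset ℤ) (a : ℤ → ℂ),
      ∫ x, Phi (‖f x - trigPoly s a x‖ / ε) ∂haarAddCircle ≤ 1 := by
  set c : ℝ := 2 / ε with hc
  have hc0 : 0 < c := by positivity
  obtain ⟨n, hn⟩ := exists_trunc_close hf hc0.le
  set b : AddCircle T → ℂ := fun x => trunc n (f x) with hb
  have hbm : AEStronglyMeasurable b (haarAddCircle : Measure (AddCircle T)) :=
    ((measurable_trunc n).comp_aemeasurable hf.1.aemeasurable).aestronglyMeasurable
  have hb2 : MemLp b 2 (haarAddCircle : Measure (AddCircle T)) :=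
    MemLp.of_bound hbm n (Eventually.of_forall fun x => norm_trunc_le n _)
  obtain ⟨s, a, hsa⟩ := exists_trigPoly_L2_close hb2 (η := 1 / (3 * c ^ 2)) (by positivity)
  refine ⟨s, a, ?_⟩
  have hpc : Continuous (trigPoly s a : AddCircle T → ℂ) := continuous_trigPoly s a
  have hp2 : MemLp (trigPoly s a : AddCircle T → ℂ) 2 (haarAddCircle : Measure (AddCircle T)) := by
    obtain ⟨C, hC⟩ := (isCompact_univ.exists_bound_of_continuousOn hpc.continuousOn)
    exact MemLp.of_bound hpc.aestronglyMeasurable C (Eventually.of_forall fun x => hC x trivial)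
  have hbp2 : MemLp (fun x => b x - trigPoly s a x) 2 (haarAddCircle : Measure (AddCircle T)) :=
    hb2.sub hp2
  have hsq : Integrable (fun x => ‖b x - trigPoly s a x‖ ^ 2) haarAddCircle :=
    (memLp_two_iff_integrable_sq_norm hbp2.1).1 hbp2
  -- second piece
  have hpt : ∀ x, Phi (c * ‖b x - trigPoly s a x‖)
      ≤ 1 / 2 + 3 / 2 * c ^ 2 * ‖b x - trigPoly s a x‖ ^ 2 := by
    intro x
    set w := c * ‖b x - trigPoly s a x‖ with hw
    have hw0 : 0 ≤ w := by positivity
    have h1 := Phi_le_add_sq hw0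
    have h2 : w ≤ 1 / 2 + w ^ 2 / 2 := by nlinarith [sq_nonneg (w - 1)]
    have h3 : w ^ 2 = c ^ 2 * ‖b x - trigPoly s a x‖ ^ 2 := by rw [hw]; ring
    nlinarith
  have hI3 : Integrable (fun x => 1 / 2 + 3 / 2 * c ^ 2 * ‖b x - trigPoly s a x‖ ^ 2)
      (haarAddCircle : Measure (AddCircle T)) :=
    (integrable_const (1 / 2 : ℝ)).add (hsq.const_mul (3 / 2 * c ^ 2))
  have hI2 : Integrable (fun x => Phi (c * ‖b x - trigPoly s a x‖)) haarAddCircle := by
    refine hI3.mono'
      (aestronglyMeasurable_Phi_mul_norm hbp2.1 c) (Eventually.of_forall fun x => ?_)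
    rw [Real.norm_of_nonneg (Phi_nonneg (by positivity))]
    exact hpt x
  have h2 : ∫ x, Phi (c * ‖b x - trigPoly s a x‖) ∂haarAddCircle ≤ 1 := by
    calc ∫ x, Phi (c * ‖b x - trigPoly s a x‖) ∂haarAddCircle
        ≤ ∫ x, (1 / 2 + 3 / 2 * c ^ 2 * ‖b x - trigPoly s a x‖ ^ 2) ∂haarAddCircle :=
          integral_mono hI2 hI3 hpt
      _ = 1 / 2 + 3 / 2 * c ^ 2 * ∫ x, ‖b x - trigPoly s a x‖ ^ 2 ∂haarAddCircle := by
          rw [integral_add (integrable_const _) (hsq.const_mul _), integral_const_mul]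
          simp
      _ ≤ 1 / 2 + 3 / 2 * c ^ 2 * (1 / (3 * c ^ 2)) := by gcongr
      _ = 1 := by field_simp; norm_num
  have hI1 : Integrable (fun x => Phi (c * ‖f x - b x‖)) haarAddCircle := by
    have : MemLlogL (fun x => f x - b x) :=
      hf.mono (hf.1.sub hbm) (fun x => norm_sub_trunc_le n _)
    exact this.integrable_Phi_mul hc0.le
  have hpt2 : ∀ x, Phi (‖f x - trigPoly s a x‖ / ε)
      ≤ Phi (c * ‖f x - b x‖) / 2 + Phi (c * ‖b x - trigPoly s a x‖) / 2 := by
    intro x
    have h1 : ‖f x - trigPoly s a x‖ / ε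
        ≤ (c * ‖f x - b x‖ + c * ‖b x - trigPoly s a x‖) / 2 := by
      have : ‖f x - trigPoly s a x‖ ≤ ‖f x - b x‖ + ‖b x - trigPoly s a x‖ := by
        have := norm_add_le (f x - b x) (b x - trigPoly s a x)
        simpa using this
      rw [hc, div_le_iff₀ hε]
      have e : (2 / ε * ‖f x - b x‖ + 2 / ε * ‖b x - trigPoly s a x‖) / 2 * ε
          = ‖f x - b x‖ + ‖b x - trigPoly s a x‖ := by field_simp
      rw [e]; exact this
    exact (Phi_mono (by positivity) h1).trans (Phi_half_add_le (by positivity) (by positivity))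
  have hI0 : Integrable (fun x => Phi (‖f x - trigPoly s a x‖ / ε)) haarAddCircle :=
    (hf.sub (memLlogL_of_continuous hpc)).integrable_Phi_div hε.le
  have hI4 : Integrable (fun x => Phi (c * ‖f x - b x‖) / 2 + Phi (c * ‖b x - trigPoly s a x‖) / 2)
      (haarAddCircle : Measure (AddCircle T)) := (hI1.div_const 2).add (hI2.div_const 2)
  calc ∫ x, Phi (‖f x - trigPoly s a x‖ / ε) ∂haarAddCircle
      ≤ ∫ x, (Phi (c * ‖f x - b x‖) / 2 + Phi (c * ‖b x - trigPoly s a x‖) / 2) ∂haarAddCircle :=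
        integral_mono hI0 hI4 hpt2
    _ = (∫ x, Phi (c * ‖f x - b x‖) ∂haarAddCircle) / 2
        + (∫ x, Phi (c * ‖b x - trigPoly s a x‖) ∂haarAddCircle) / 2 := by
        rw [integral_add (hI1.div_const 2) (hI2.div_const 2), integral_div, integral_div]
    _ ≤ 1 / 2 + 1 / 2 := by gcongr
    _ = 1 := by norm_num

end Vale.Agent.P091
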