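import Vale.Agent.P091.Series

/-!
# The gliding hump: frequency-disjoint superposition of band-limited blocks
-/

open MeasureTheory AddCircle Filter Topology

namespace Vale.Agent.P091

variable {T : ℝ} [hT : Fact (0 < T)]

lemma fourierSum_zero (f : AddCircle T → ℂ) (x : AddCircle T) :
    fourierSum f 0 x = fourierCoeff f 0 * fourier 0 x := by
  simp [fourierSum]

lemma fourierSum_succ (f : AddCircle T → ℂ) (N : ℕ) (x : AddCircle T) :
    fourierSum f (N + 1) x = fourierSum f N x
      + fourierCoeff f ((N : ℤ) + 1) * fourier ((N : ℤ) + 1) x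
      + fourierCoeff f (-((N : ℤ) + 1)) * fourier (-((N : ℤ) + 1)) x := by
  unfold fourierSum
  have h : Finset.Icc (-((N + 1 : ℕ) : ℤ)) ((N + 1 : ℕ) : ℤ)
      = insert (-((N : ℤ) + 1)) (insert ((N : ℤ) + 1) (Finset.Icc (-(N : ℤ)) N)) := by
    ext k
    simp only [Finset.mem_Icc, Finset.mem_insert, Nat.cast_add, Nat.cast_one]
    omega
  rw [h, Finset.sum_insert, Finset.sum_insert]
  · ring
  · simp only [Finset.mem_Icc]; omega
  · simp only [Finset.mem_Icc, Finset.mem_insert]; omega

/-- one-sided sums of a function whose spectrum lies in `[-d, d]` -/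
noncomputable def oneSided (u : AddCircle T → ℂ) (d : ℕ) (x : AddCircle T) (i : ℕ) : ℂ :=
  ∑ r ∈ Finset.range i, fourierCoeff u ((r : ℤ) - d) * fourier ((r : ℤ) - d) x

lemma fourierSum_eq_oneSided (u : AddCircle T → ℂ) (d : ℕ) (x : AddCircle T) (N : ℕ)
    (hN : N ≤ d) :
    fourierSum u N x = oneSided u d x (d + 1 + N) - oneSided u d x (d - N) := by
  induction N with
  | zero =>
    rw [fourierSum_zero]
    simp [oneSided, Finset.sum_range_succ]
  | succ N ih =>
    rw [fourierSum_succ, ih (by omega)]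
    have h1 : d + 1 + (N + 1) = (d + 1 + N) + 1 := by ring
    have h2 : d - N = (d - (N + 1)) + 1 := by omega
    rw [h1, h2]
    unfold oneSided
    rw [Finset.sum_range_succ _ (d + 1 + N), Finset.sum_range_succ _ (d - (N + 1))]
    have e1 : (((d + 1 + N : ℕ) : ℤ) - d) = (N : ℤ) + 1 := by push_cast; ring
    have e2 : (((d - (N + 1) : ℕ) : ℤ) - d) = -((N : ℤ) + 1) := by
      have : ((d - (N + 1) : ℕ) : ℤ) = (d : ℤ) - ((N : ℤ) + 1) := by
        rw [Nat.cast_sub hN]; push_cast; ring
      rw [this]; ring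
    rw [e1, e2]
    ring

lemma fourierSum_eq_of_band (u : AddCircle T → ℂ) (d : ℕ)
    (hband : ∀ k : ℤ, (d : ℤ) < |k| → fourierCoeff u k = 0) (x : AddCircle T) (j : ℕ) :
    fourierSum u (d + j) x = fourierSum u d x := by
  induction j with
  | zero => rfl
  | succ j ih =>
    rw [← add_assoc, fourierSum_succ, ih]
    have h1 : fourierCoeff u (((d + j : ℕ) : ℤ) + 1) = 0 := by
      apply hband
      rw [abs_of_nonneg (by positivity)]
      push_cast; omega
    have h2 : fourierCoeff u (-(((d + j : ℕ) : ℤ) + 1)) = 0 := by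
      apply hband
      rw [abs_neg, abs_of_nonneg (by positivity)]
      push_cast; omega
    rw [h1, h2]; simp

/-- the left end points of the frequency blocks -/
def base (d : ℕ → ℕ) : ℕ → ℕ
  | 0 => 0
  | m + 1 => base d m + (2 * d m + 1)

lemma base_succ (d : ℕ → ℕ) (m : ℕ) : base d (m + 1) = base d m + (2 * d m + 1) := rfl

lemma base_mono (d : ℕ → ℕ) : Monotone (base d) :=
  monotone_nat_of_le_succ fun m => by rw [base_succ]; omega

/-- **Gliding hump lemma.** -/
theorem exists_glide (u : ℕ → AddCircle T → ℂ) (d : ℕ → ℕ) (c : ℕ → ℝ)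
    (hu : ∀ m, Continuous (u m))
    (hband : ∀ m, ∀ k : ℤ, (d m : ℤ) < |k| → fourierCoeff (u m) k = 0)
    (hmod : ∀ m, ∫ x, Phi ‖u m x‖ ∂haarAddCircle ≤ 1)
    (hc : ∀ m, 0 ≤ c m) (hcs : Summable c) (hc1 : ∑' m, c m ≤ 1) :
    ∃ F : AddCircle T → ℂ, MemLlogL F ∧
      ∀ m N x, ∃ N', c m * ‖fourierSum (u m) N x‖ ≤ 4 * ‖fourierSum F N' x‖ := by
  -- centre frequencies
  set M : ℕ → ℤ := fun m => (base d m : ℤ) + d m + 1 with hM
  set v : ℕ → AddCircle T → ℂ := fun m x => fourier (M m) x * u m x with hv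
  have hvc : ∀ m, Continuous (v m) := fun m => (fourier (M m)).continuous.mul (hu m)
  have hvn : ∀ m x, ‖v m x‖ = ‖u m x‖ := by
    intro m x
    rw [hv]; simp only [norm_mul, norm_fourier_apply, one_mul]
  have hvmod : ∀ m, ∫ x, Phi ‖v m x‖ ∂haarAddCircle ≤ 1 := by
    intro m
    simp only [hvn]
    exact hmod m
  obtain ⟨hF, hcoef⟩ := series_memLlogL v c hvc hvmod hc hcs hc1
  set F : AddCircle T → ℂ := fun x => ∑' m, (c m : ℂ) * v m x with hFdef
  have hvcoef : ∀ m k, fourierCoeff (v m) k = fourierCoeff (u m) (k - M m) := fun m k =>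
    fourierCoeff_modulate (u m) (M m) k
  -- coefficients of `F` on the blocks
  have hblock : ∀ m i : ℕ, i ≤ 2 * d m →
      fourierCoeff F ((base d m : ℤ) + i + 1) = (c m : ℂ) * fourierCoeff (u m) ((i : ℤ) - d m) := by
    intro m i hi
    have h1 := hcoef ((base d m : ℤ) + i + 1)
    have h2 : HasSum (fun m' => (c m' : ℂ) * fourierCoeff (v m') ((base d m : ℤ) + i + 1))
        ((c m : ℂ) * fourierCoeff (v m) ((base d m : ℤ) + i + 1)) := by
      refine hasSum_single m fun m' hm' => ?_
      rw [hvcoef, hband m', mul_zero]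
      rcases lt_or_gt_of_ne hm' with hlt | hgt
      · -- m' < m
        have hb : base d (m' + 1) ≤ base d m := base_mono d hlt
        rw [base_succ] at hb
        have hb' : (base d m' : ℤ) + (2 * d m' + 1) ≤ base d m := by exact_mod_cast hb
        rw [hM]
        refine lt_of_lt_of_le ?_ (le_abs_self _)
        simp only
        omega
      · -- m < m'
        have hb : base d (m + 1) ≤ base d m' := base_mono d hgt
        rw [base_succ] at hb
        have hb' : (base d m : ℤ) + (2 * d m + 1) ≤ base d m' := by exact_mod_cast hb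
        rw [hM]
        refine lt_of_lt_of_le ?_ (neg_le_abs _)
        simp only
        omega
    rw [h1.unique h2, hvcoef]
    congr 2
    rw [hM]; simp only; ring
  have hneg : ∀ n : ℕ, fourierCoeff F (-((n : ℤ) + 1)) = 0 := by
    intro n
    have h1 := hcoef (-((n : ℤ) + 1))
    have h2 : HasSum (fun m' => (c m' : ℂ) * fourierCoeff (v m') (-((n : ℤ) + 1))) 0 := by
      have : (fun m' => (c m' : ℂ) * fourierCoeff (v m') (-((n : ℤ) + 1))) = fun _ => 0 := by
        ext m'
        rw [hvcoef, hband m', mul_zero]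
        rw [hM]
        refine lt_of_lt_of_le ?_ (neg_le_abs _)
        simp only
        omega
      rw [this]
      exact hasSum_zero
    exact h1.unique h2
  -- sums of `F` along a block
  have hsum : ∀ m i : ℕ, i ≤ 2 * d m + 1 → ∀ x,
      fourierSum F (base d m + i) x - fourierSum F (base d m) x
        = (c m : ℂ) * fourier (M m) x * oneSided (u m) (d m) x i := by
    intro m i
    induction i with
    | zero => intro _ x; simp [oneSided]
    | succ i ih =>
      intro hi x
      have ih' := ih (by omega) x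
      rw [← add_assoc, fourierSum_succ]
      have e1 : (((base d m + i : ℕ) : ℤ) + 1) = (base d m : ℤ) + i + 1 := by push_cast; ring
      rw [hneg, e1, hblock m i (by omega)]
      unfold oneSided at ih' ⊢
      rw [Finset.sum_range_succ, mul_add, ← ih']
      have e2 : (base d m : ℤ) + i + 1 = M m + ((i : ℤ) - d m) := by rw [hM]; simp only; ring
      rw [e2, fourier_add]
      ring
  refine ⟨F, hF, fun m N x => ?_⟩
  -- reduce to `N ≤ d m`
  obtain ⟨N0, hN0, hN0eq⟩ : ∃ N0 ≤ d m, fourierSum (u m) N x = fourierSum (u m) N0 x := by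
    rcases le_total N (d m) with h | h
    · exact ⟨N, h, rfl⟩
    · obtain ⟨j, rfl⟩ := Nat.exists_eq_add_of_le h
      exact ⟨d m, le_rfl, fourierSum_eq_of_band (u m) (d m) (hband m) x j⟩
  rw [hN0eq, fourierSum_eq_oneSided (u m) (d m) x N0 hN0]
  set A := fourierSum F (base d m + (d m + 1 + N0)) x with hA
  set B := fourierSum F (base d m + (d m - N0)) x with hB
  set C := fourierSum F (base d m) x with hC
  have hA' := hsum m (d m + 1 + N0) (by omega) x
  have hB' := hsum m (d m - N0) (by omega) x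
  have hkey : c m * ‖oneSided (u m) (d m) x (d m + 1 + N0) - oneSided (u m) (d m) x (d m - N0)‖
      = ‖A - B‖ := by
    have : A - B = (c m : ℂ) * fourier (M m) x *
        (oneSided (u m) (d m) x (d m + 1 + N0) - oneSided (u m) (d m) x (d m - N0)) := by
      rw [mul_sub, ← hA', ← hB']; ring
    rw [this, norm_mul, norm_mul, norm_fourier_apply, Complex.norm_real,
      Real.norm_of_nonneg (hc m), mul_one]
  rw [hkey]
  have htri : ‖A - B‖ ≤ ‖A‖ + ‖B‖ := norm_sub_le A B
  rcases le_total ‖A‖ ‖B‖ with h | h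
  · exact ⟨_, by rw [← hB]; nlinarith [norm_nonneg A, norm_nonneg B]⟩
  · exact ⟨_, by rw [← hA]; nlinarith [norm_nonneg A, norm_nonneg B]⟩

end Vale.Agent.P091
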