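import Vale.Agent.P091.Assemble
import Vale.Agent.P091.Density

/-!
# The maximal principle for `L log L`
-/

open MeasureTheory AddCircle Filter Topology

namespace Vale.Agent.P091

variable {T : ℝ} [hT : Fact (0 < T)]

lemma integral_norm_le_of_Phi_div {w : AddCircle T → ℂ} (hw : MemLlogL w) {ε : ℝ} (hε : 0 < ε)
    (h : ∫ x, Phi (‖w x‖ / ε) ∂haarAddCircle ≤ 1) :
    ∫ x, ‖w x‖ ∂haarAddCircle ≤ ε / Real.log 2 := by
  have hl2 : 0 < Real.log 2 := Real.log_pos (by norm_num)
  have h1 : ∫ x, ‖w x‖ / ε * Real.log 2 ∂haarAddCircle ≤ ∫ x, Phi (‖w x‖ / ε) ∂haarAddCircle :=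
    integral_mono ((hw.integrable.norm.div_const ε).mul_const _) (hw.integrable_Phi_div hε.le)
      (fun x => mul_log_two_le_Phi (by positivity))
  rw [integral_mul_const, integral_div] at h1
  rw [le_div_iff₀ hl2]
  have h2 : (∫ x, ‖w x‖ ∂haarAddCircle) / ε * Real.log 2 ≤ 1 := h1.trans h
  rw [div_mul_eq_mul_div, div_le_iff₀ hε] at h2
  linarith

/-- replacing a function of `L log L` by a band-limited continuous one -/
lemma exists_band_limited {v : AddCircle T → ℂ} (hv : MemLlogL v)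
    (hmod : ∫ x, Phi ‖v x‖ ∂haarAddCircle ≤ 1) {θ r : ℝ} (hθ : 0 < θ)
    (hr : r < (haarAddCircle : Measure (AddCircle T)).real {x | ∃ N, θ < ‖fourierSum v N x‖}) :
    ∃ (u : AddCircle T → ℂ) (d : ℕ), Continuous u ∧
      (∀ k : ℤ, (d : ℤ) < |k| → fourierCoeff u k = 0) ∧
      ∫ x, Phi ‖u x‖ ∂haarAddCircle ≤ 1 ∧
      r < (haarAddCircle : Measure (AddCircle T)).real {x | ∃ N, θ / 4 < ‖fourierSum u N x‖} := by
  set μ : Measure (AddCircle T) := haarAddCircle with hμ
  have hl2 : 0 < Real.log 2 := Real.log_pos (by norm_num)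
  -- step 1: finitely many sums suffice
  set A : ℕ → Set (AddCircle T) := fun K => {x | ∃ N ≤ K, θ < ‖fourierSum v N x‖} with hA
  have hAmono : Monotone A := by
    intro K K' hKK' x hx
    obtain ⟨N, hN, h⟩ := hx
    exact ⟨N, hN.trans hKK', h⟩
  have hAU : ⋃ K, A K = {x | ∃ N, θ < ‖fourierSum v N x‖} := by
    ext x
    simp only [hA, Set.mem_iUnion, Set.mem_ofPred_eq]
    constructor
    · rintro ⟨K, N, _, h⟩; exact ⟨N, h⟩
    · rintro ⟨N, h⟩; exact ⟨N, N, le_rfl, h⟩
  have htend : Tendsto (fun K => μ.real (A K)) atTop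
      (𝓝 (μ.real {x | ∃ N, θ < ‖fourierSum v N x‖})) := by
    rw [← hAU]
    exact (ENNReal.tendsto_toReal (measure_ne_top _ _)).comp (tendsto_measure_iUnion_atTop hAmono)
  obtain ⟨K, hK⟩ := (htend.eventually (lt_mem_nhds hr)).exists
  -- step 2: approximation
  set ε : ℝ := min 1 (θ * Real.log 2 / (2 * (2 * K + 1))) with hε
  have hε0 : 0 < ε := lt_min one_pos (by positivity)
  have hε1 : ε ≤ 1 := min_le_left _ _
  have hε2 : ε ≤ θ * Real.log 2 / (2 * (2 * K + 1)) := min_le_right _ _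
  obtain ⟨s, a, hsa⟩ := exists_trigPoly_close hv hε0
  set p : AddCircle T → ℂ := trigPoly s a with hp
  have hpc : Continuous p := continuous_trigPoly s a
  have hpL : MemLlogL p := memLlogL_of_continuous hpc
  set w : AddCircle T → ℂ := fun x => v x - p x with hw
  have hwL : MemLlogL w := hv.sub hpL
  have hw1 : ∫ x, ‖w x‖ ∂μ ≤ ε / Real.log 2 := integral_norm_le_of_Phi_div hwL hε0 hsa
  have hw0 : 0 ≤ ∫ x, ‖w x‖ ∂μ := integral_nonneg fun x => norm_nonneg _
  have hsmall : ∀ N ≤ K, ∀ x, ‖fourierSum w N x‖ ≤ θ / 2 := by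
    intro N hN x
    refine (norm_fourierSum_le w N x).trans ?_
    have hNK : (2 * (N : ℝ) + 1) ≤ 2 * K + 1 := by
      have : (N : ℝ) ≤ K := by exact_mod_cast hN
      linarith
    calc (2 * (N : ℝ) + 1) * ∫ x, ‖w x‖ ∂μ ≤ (2 * K + 1) * (ε / Real.log 2) :=
          mul_le_mul hNK hw1 hw0 (by positivity)
      _ ≤ (2 * K + 1) * (θ * Real.log 2 / (2 * (2 * K + 1)) / Real.log 2) := by gcongr
      _ = θ / 2 := by field_simp
  refine ⟨fun x => (1 / 2 : ℂ) * p x, s.sup Int.natAbs, continuous_const.mul hpc, ?_, ?_, ?_⟩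
  · intro k hk
    have h1 : fourierCoeff (fun x => (1 / 2 : ℂ) * p x) k = (1 / 2 : ℂ) * fourierCoeff p k :=
      fourierCoeff.const_mul p _ k
    rw [h1, hp, fourierCoeff_trigPoly, if_neg, mul_zero]
    intro hks
    have h2 : Int.natAbs k ≤ s.sup Int.natAbs := Finset.le_sup (f := Int.natAbs) hks
    have h3 : |k| = (Int.natAbs k : ℤ) := Int.abs_eq_natAbs k
    rw [h3] at hk
    have : s.sup Int.natAbs < Int.natAbs k := by exact_mod_cast hk
    omega
  · have hpt : ∀ x, Phi ‖(1 / 2 : ℂ) * p x‖ ≤ Phi ‖v x‖ / 2 + Phi (‖w x‖ / ε) / 2 := by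
      intro x
      have h1 : ‖(1 / 2 : ℂ) * p x‖ ≤ (‖v x‖ + ‖w x‖ / ε) / 2 := by
        have e1 : ‖(1 / 2 : ℂ) * p x‖ = ‖p x‖ / 2 := by
          rw [norm_mul]; simp; ring
        have e2 : ‖p x‖ ≤ ‖v x‖ + ‖w x‖ := by
          have : p x = v x - w x := by simp [hw]
          rw [this]; exact norm_sub_le _ _
        have e3 : ‖w x‖ ≤ ‖w x‖ / ε := by
          rw [le_div_iff₀ hε0]
          exact mul_le_of_le_one_right (norm_nonneg _) hε1
        rw [e1]; linarith
      exact (Phi_mono (norm_nonneg _) h1).trans (Phi_half_add_le (norm_nonneg _) (by positivity))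
    have hI1 : Integrable (fun x => Phi ‖(1 / 2 : ℂ) * p x‖) μ := (hpL.const_mul _).2
    have hI2 : Integrable (fun x => Phi ‖v x‖ / 2 + Phi (‖w x‖ / ε) / 2) μ :=
      (hv.2.div_const 2).add ((hwL.integrable_Phi_div hε0.le).div_const 2)
    calc ∫ x, Phi ‖(1 / 2 : ℂ) * p x‖ ∂μ
        ≤ ∫ x, (Phi ‖v x‖ / 2 + Phi (‖w x‖ / ε) / 2) ∂μ := integral_mono hI1 hI2 hpt
      _ = (∫ x, Phi ‖v x‖ ∂μ) / 2 + (∫ x, Phi (‖w x‖ / ε) ∂μ) / 2 := by
          rw [integral_add (hv.2.div_const 2) ((hwL.integrable_Phi_div hε0.le).div_const 2),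
            integral_div, integral_div]
      _ ≤ 1 / 2 + 1 / 2 := by gcongr
      _ = 1 := by norm_num
  · refine lt_of_lt_of_le hK (measureReal_mono ?_ (measure_ne_top _ _))
    rintro x ⟨N, hN, hx⟩
    refine ⟨N, ?_⟩
    rw [fourierSum_const_mul, norm_mul]
    have h1 : fourierSum w N x = fourierSum v N x - fourierSum p N x :=
      fourierSum_sub hv.integrable hpL.integrable N x
    have h2 : ‖fourierSum v N x‖ ≤ ‖fourierSum w N x‖ + ‖fourierSum p N x‖ := by
      have : fourierSum v N x = fourierSum w N x + fourierSum p N x := by rw [h1]; ring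
      rw [this]; exact norm_add_le _ _
    have h3 := hsmall N hN x
    have h4 : ‖(1 / 2 : ℂ)‖ = 1 / 2 := by simp
    rw [h4]
    linarith

/-- **Maximal principle, hard direction.**  If no function of `L log L` has an almost everywhere
unbounded sequence of Fourier sums, then the maximal operator satisfies a weak-type bound. -/
theorem weakType_of_not_unbounded
    (H : ∀ f : AddCircle T → ℂ, MemLlogL f →
      ¬ ∀ᵐ x ∂haarAddCircle, ∀ R : ℝ, ∃ N, R < ‖fourierSum f N x‖) :
    ∃ C : ℝ, ∀ f : AddCircle T → ℂ, MemLlogL f → ∀ t : ℝ, 0 < t →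
      ∫ x, Phi (‖f x‖ / t) ∂haarAddCircle ≤ 1 → ∀ lam : ℝ, 0 < lam →
        (haarAddCircle : Measure (AddCircle T)) {x | ∃ N, lam < ‖fourierSum f N x‖}
          ≤ ENNReal.ofReal (C * t / lam) := by
  by_contra hne
  push Not at hne
  obtain ⟨F, hF, hFu⟩ := exists_unbounded (T := T) (fun C => by
    obtain ⟨f, hf, t, ht, hmod, lam, hlam, hlt⟩ := hne (4 * max C 0)
    have hC0 : 0 ≤ 4 * max C 0 * t / lam := by positivity
    rw [ENNReal.ofReal_lt_iff_lt_toReal hC0 (measure_ne_top _ _)] at hlt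
    set v : AddCircle T → ℂ := fun x => ((1 / t : ℝ) : ℂ) * f x with hv
    have hvn : ∀ z : ℂ, ‖((1 / t : ℝ) : ℂ) * z‖ = ‖z‖ / t := by
      intro z
      rw [norm_mul, Complex.norm_real, Real.norm_of_nonneg (by positivity)]
      field_simp
    have hvL : MemLlogL v := hf.const_mul _
    have hvmod : ∫ x, Phi ‖v x‖ ∂haarAddCircle ≤ 1 := by
      simp only [hv, hvn]; exact hmod
    have hset : {x : AddCircle T | ∃ N, lam / t < ‖fourierSum v N x‖}
        = {x | ∃ N, lam < ‖fourierSum f N x‖} := by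
      ext x
      simp only [Set.mem_ofPred_eq, hv, fourierSum_const_mul, hvn]
      refine exists_congr fun N => ?_
      exact div_lt_div_iff_of_pos_right ht
    obtain ⟨u, d, hu, hband, humod, hur⟩ := exists_band_limited hvL hvmod
      (θ := lam / t) (r := 4 * max C 0 * t / lam) (by positivity) (by
        rw [hset]; exact hlt)
    refine ⟨u, d, lam / t / 4, hu, hband, humod, by positivity, ?_⟩
    have hpos : 0 < lam / t / 4 := by positivity
    calc C ≤ max C 0 := le_max_left _ _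
      _ = lam / t / 4 * (4 * max C 0 * t / lam) := by field_simp
      _ < lam / t / 4 * _ := mul_lt_mul_of_pos_left hur hpos)
  exact H F hF hFu

/-- **Maximal principle, easy direction.** -/
theorem ae_tendsto_of_weakType {C : ℝ}
    (hC : ∀ f : AddCircle T → ℂ, MemLlogL f → ∀ t : ℝ, 0 < t →
      ∫ x, Phi (‖f x‖ / t) ∂haarAddCircle ≤ 1 → ∀ lam : ℝ, 0 < lam →
        (haarAddCircle : Measure (AddCircle T)) {x | ∃ N, lam < ‖fourierSum f N x‖}
          ≤ ENNReal.ofReal (C * t / lam))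
    {f : AddCircle T → ℂ} (hf : MemLlogL f) :
    ∀ᵐ x ∂haarAddCircle, Tendsto (fun N => fourierSum f N x) atTop (𝓝 (f x)) := by
  set μ : Measure (AddCircle T) := haarAddCircle with hμ
  have hl2 : 0 < Real.log 2 := Real.log_pos (by norm_num)
  have hbad : ∀ lam : ℝ, 0 < lam →
      μ {x | ¬ ∀ᶠ N in atTop, ‖fourierSum f N x - f x‖ ≤ 2 * lam} = 0 := by
    intro lam hlam
    have hest : ∀ ε : ℝ, 0 < ε → μ {x | ¬ ∀ᶠ N in atTop, ‖fourierSum f N x - f x‖ ≤ 2 * lam}
        ≤ ENNReal.ofReal ((max C 0 / lam + 1 / (lam * Real.log 2)) * ε) := by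
      intro ε hε
      obtain ⟨s, a, hsa⟩ := exists_trigPoly_close hf hε
      set p : AddCircle T → ℂ := trigPoly s a with hp
      have hpL : MemLlogL p := memLlogL_of_continuous (continuous_trigPoly s a)
      set w : AddCircle T → ℂ := fun x => f x - p x with hw
      have hwL : MemLlogL w := hf.sub hpL
      have hw1 : ∫ x, ‖w x‖ ∂μ ≤ ε / Real.log 2 := integral_norm_le_of_Phi_div hwL hε hsa
      have hsub : {x | ¬ ∀ᶠ N in atTop, ‖fourierSum f N x - f x‖ ≤ 2 * lam}
          ⊆ {x | ∃ N, lam < ‖fourierSum w N x‖} ∪ {x | lam ≤ ‖w x‖} := by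
        intro x hx
        by_contra hcon
        simp only [Set.mem_union, Set.mem_ofPred_eq, not_or, not_exists, not_lt, not_le] at hcon
        apply hx
        filter_upwards [eventually_ge_atTop (s.sup Int.natAbs)] with N hN
        have hsN : s ⊆ Finset.Icc (-(N : ℤ)) N := by
          intro k hk
          have h2 : Int.natAbs k ≤ s.sup Int.natAbs := Finset.le_sup (f := Int.natAbs) hk
          rw [Finset.mem_Icc]
          omega
        have h1 : fourierSum w N x = fourierSum f N x - fourierSum p N x :=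
          fourierSum_sub hf.integrable hpL.integrable N x
        rw [hp, fourierSum_trigPoly s a N hsN] at h1
        have h3 : fourierSum f N x - f x = fourierSum w N x - w x := by
          rw [h1, hw]; ring
        rw [h3]
        have := norm_sub_le (fourierSum w N x) (w x)
        linarith [hcon.1 N, hcon.2]
      have hm1 : μ {x | ∃ N, lam < ‖fourierSum w N x‖} ≤ ENNReal.ofReal (max C 0 * ε / lam) := by
        refine (hC w hwL ε hε hsa lam hlam).trans (ENNReal.ofReal_le_ofReal ?_)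
        have : C ≤ max C 0 := le_max_left _ _
        gcongr
      have hm2 : μ {x | lam ≤ ‖w x‖} ≤ ENNReal.ofReal (ε / Real.log 2 / lam) := by
        have h := mul_meas_ge_le_integral_of_nonneg (μ := μ)
          (Eventually.of_forall fun x => norm_nonneg (w x)) hwL.integrable.norm lam
        rw [← ofReal_measureReal (measure_ne_top _ _)]
        refine ENNReal.ofReal_le_ofReal ?_
        rw [le_div_iff₀ hlam]
        linarith
      calc μ {x | ¬ ∀ᶠ N in atTop, ‖fourierSum f N x - f x‖ ≤ 2 * lam}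
          ≤ μ ({x | ∃ N, lam < ‖fourierSum w N x‖} ∪ {x | lam ≤ ‖w x‖}) := measure_mono hsub
        _ ≤ μ {x | ∃ N, lam < ‖fourierSum w N x‖} + μ {x | lam ≤ ‖w x‖} := measure_union_le _ _
        _ ≤ ENNReal.ofReal (max C 0 * ε / lam) + ENNReal.ofReal (ε / Real.log 2 / lam) :=
            add_le_add hm1 hm2
        _ = ENNReal.ofReal ((max C 0 / lam + 1 / (lam * Real.log 2)) * ε) := by
            rw [← ENNReal.ofReal_add (by positivity) (by positivity)]
            congr 1
            field_simp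
    have htend : Tendsto (fun n : ℕ => ENNReal.ofReal
        ((max C 0 / lam + 1 / (lam * Real.log 2)) * (1 / ((n : ℝ) + 1)))) atTop
        (𝓝 (ENNReal.ofReal ((max C 0 / lam + 1 / (lam * Real.log 2)) * 0))) :=
      (ENNReal.continuous_ofReal.tendsto _).comp
        (tendsto_one_div_add_atTop_nhds_zero_nat.const_mul _)
    have := ge_of_tendsto' htend (fun n => hest (1 / ((n : ℝ) + 1)) (by positivity))
    simpa using this
  have hall : ∀ᵐ x ∂μ, ∀ j : ℕ, ∀ᶠ N in atTop,
      ‖fourierSum f N x - f x‖ ≤ 2 * (1 / ((j : ℝ) + 1)) := by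
    rw [ae_all_iff]
    intro j
    have := measure_eq_zero_iff_ae_notMem.1 (hbad (1 / ((j : ℝ) + 1)) (by positivity))
    filter_upwards [this] with x hx
    simpa using hx
  filter_upwards [hall] with x hx
  rw [Metric.tendsto_nhds]
  intro ε hε
  obtain ⟨j, hj⟩ := exists_nat_one_div_lt (show (0 : ℝ) < ε / 2 by positivity)
  filter_upwards [hx j] with N hN
  rw [dist_eq_norm]
  linarith

end Vale.Agent.P091
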