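import Mathlib

/-!
# The Young function `u * log (2 + u)` of the class `L log L`
-/

open Set

namespace Vale.Agent.P091

/-- The Young function `Φ(u) = u log (2 + u)`. -/
noncomputable def Phi (u : ℝ) : ℝ := u * Real.log (2 + u)

lemma Phi_def (u : ℝ) : Phi u = u * Real.log (2 + u) := rfl

@[simp] lemma Phi_zero : Phi 0 = 0 := by simp [Phi]

lemma log_two_add_pos {u : ℝ} (hu : 0 ≤ u) : 0 < Real.log (2 + u) :=
  Real.log_pos (by linarith)

lemma Phi_nonneg {u : ℝ} (hu : 0 ≤ u) : 0 ≤ Phi u :=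
  mul_nonneg hu (log_two_add_pos hu).le

lemma Phi_mono {u v : ℝ} (hu : 0 ≤ u) (huv : u ≤ v) : Phi u ≤ Phi v := by
  unfold Phi
  have h1 : Real.log (2 + u) ≤ Real.log (2 + v) :=
    Real.log_le_log (by linarith) (by linarith)
  exact mul_le_mul huv h1 (log_two_add_pos hu).le (hu.trans huv)

lemma measurable_Phi : Measurable Phi := by
  unfold Phi
  exact measurable_id.mul (Real.measurable_log.comp (measurable_const.add measurable_id))

lemma continuousOn_Phi : ContinuousOn Phi (Ici 0) := by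
  unfold Phi
  refine continuousOn_id.mul ?_
  refine ContinuousOn.log (continuousOn_const.add continuousOn_id) ?_
  intro x hx
  have : (0 : ℝ) ≤ x := hx
  show (2 : ℝ) + x ≠ 0
  linarith

lemma convexOn_Phi : ConvexOn ℝ (Ici 0) Phi := by
  -- `Φ(u) = (2+u) log (2+u) - 2 log (2+u)`
  have h1 : ConvexOn ℝ (Ici (0 : ℝ)) (fun u : ℝ => (2 + u) * Real.log (2 + u)) := by
    have := (Real.convexOn_mul_log.translate_right (2 : ℝ))
    refine (this.subset ?_ (convex_Ici 0)).congr ?_
    · intro x hx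
      have hx' : (0 : ℝ) ≤ x := hx
      simp only [mem_preimage, mem_Ici]
      linarith
    · intro x _
      simp [Function.comp]
  have h2 : ConcaveOn ℝ (Ici (0 : ℝ)) (fun u : ℝ => Real.log (2 + u)) := by
    have := (strictConcaveOn_log_Ioi.concaveOn.translate_right (2 : ℝ))
    refine (this.subset ?_ (convex_Ici 0)).congr ?_
    · intro x hx
      have hx' : (0 : ℝ) ≤ x := hx
      simp only [mem_preimage, mem_Ioi]
      linarith
    · intro x _
      simp [Function.comp]
  have h3 : ConvexOn ℝ (Ici (0 : ℝ)) (fun u : ℝ => (2 : ℝ) • (-(Real.log (2 + u)))) :=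
    (h2.neg).smul (by norm_num)
  refine (h1.add h3).congr ?_
  intro x _
  simp only [Phi, smul_eq_mul, Pi.add_apply]
  ring

lemma mul_log_two_le_Phi {u : ℝ} (hu : 0 ≤ u) : u * Real.log 2 ≤ Phi u := by
  unfold Phi
  exact mul_le_mul_of_nonneg_left (Real.log_le_log (by norm_num) (by linarith)) hu

lemma Phi_le_add_sq {u : ℝ} (hu : 0 ≤ u) : Phi u ≤ u + u ^ 2 := by
  unfold Phi
  have h : Real.log (2 + u) ≤ 1 + u := by
    have := Real.log_le_sub_one_of_pos (show (0 : ℝ) < 2 + u by linarith)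
    linarith
  nlinarith [mul_le_mul_of_nonneg_left h hu]

/-- star-shapedness -/
lemma Phi_smul_le {θ u : ℝ} (h0 : 0 ≤ θ) (h1 : θ ≤ 1) (hu : 0 ≤ u) :
    Phi (θ * u) ≤ θ * Phi u := by
  unfold Phi
  have h : Real.log (2 + θ * u) ≤ Real.log (2 + u) := by
    apply Real.log_le_log
    · nlinarith [mul_nonneg h0 hu]
    · nlinarith [mul_nonneg (sub_nonneg.2 h1) hu]
  calc θ * u * Real.log (2 + θ * u) ≤ θ * u * Real.log (2 + u) :=
        mul_le_mul_of_nonneg_left h (mul_nonneg h0 hu)
    _ = θ * (u * Real.log (2 + u)) := by ring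

/-- the `Δ₂`-type bound -/
lemma Phi_mul_le {c u : ℝ} (hc : 1 ≤ c) (hu : 0 ≤ u) :
    Phi (c * u) ≤ (c * Real.log c / Real.log 2 + c) * Phi u := by
  have hl2 : 0 < Real.log 2 := Real.log_pos (by norm_num)
  have hc0 : 0 < c := by linarith
  have h1 : Real.log (2 + c * u) ≤ Real.log c + Real.log (2 + u) := by
    rw [← Real.log_mul (by linarith) (by linarith)]
    apply Real.log_le_log
    · nlinarith [mul_nonneg hc0.le hu]
    · nlinarith
  have h2 : u ≤ Phi u / Real.log 2 := by
    rw [le_div_iff₀ hl2]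
    exact mul_log_two_le_Phi hu
  have hlc : 0 ≤ Real.log c := Real.log_nonneg hc
  calc Phi (c * u) = c * u * Real.log (2 + c * u) := rfl
    _ ≤ c * u * (Real.log c + Real.log (2 + u)) :=
        mul_le_mul_of_nonneg_left h1 (mul_nonneg hc0.le hu)
    _ = c * Real.log c * u + c * Phi u := by unfold Phi; ring
    _ ≤ c * Real.log c * (Phi u / Real.log 2) + c * Phi u := by
        gcongr
    _ = (c * Real.log c / Real.log 2 + c) * Phi u := by ring

/-- finite Jensen inequality with sub-probability weights -/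
lemma Phi_sum_le {ι : Type*} (s : Finset ι) (c u : ι → ℝ) (hc : ∀ i ∈ s, 0 ≤ c i)
    (hu : ∀ i ∈ s, 0 ≤ u i) (hsum : ∑ i ∈ s, c i ≤ 1) :
    Phi (∑ i ∈ s, c i * u i) ≤ ∑ i ∈ s, c i * Phi (u i) := by
  classical
  let w : Option ι → ℝ := fun o => o.elim (1 - ∑ i ∈ s, c i) c
  let p : Option ι → ℝ := fun o => o.elim 0 u
  have key := convexOn_Phi.map_sum_le (t := Finset.insertNone s) (w := w) (p := p) ?_ ?_ ?_
  · simpa [Finset.sum_insertNone, w, p] using key
  · intro i hi
    cases i with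
    | none => simpa [w] using hsum
    | some i => exact hc i (by simpa using hi)
  · simp [Finset.sum_insertNone, w]
  · intro i hi
    cases i with
    | none => simp [p]
    | some i => exact hu i (by simpa using hi)

lemma Phi_half_add_le {a b : ℝ} (ha : 0 ≤ a) (hb : 0 ≤ b) :
    Phi ((a + b) / 2) ≤ Phi a / 2 + Phi b / 2 := by
  have := convexOn_Phi.2 (show a ∈ Ici (0 : ℝ) from ha) (show b ∈ Ici (0 : ℝ) from hb)
    (show (0 : ℝ) ≤ 1 / 2 by norm_num) (show (0 : ℝ) ≤ 1 / 2 by norm_num) (by norm_num)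
  simp only [smul_eq_mul] at this
  calc Phi ((a + b) / 2) = Phi (1 / 2 * a + 1 / 2 * b) := by congr 1; ring
    _ ≤ 1 / 2 * Phi a + 1 / 2 * Phi b := this
    _ = Phi a / 2 + Phi b / 2 := by ring

end Vale.Agent.P091
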