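import Vale.Agent.P091.Basic

/-!
# Absolutely convergent series in `L log L`
-/

open MeasureTheory AddCircle Filter Topology

namespace Vale.Agent.P091

variable {T : ℝ} [hT : Fact (0 < T)]

lemma continuousAt_Phi {u : ℝ} (hu : 0 ≤ u) : ContinuousAt Phi u := by
  unfold Phi
  refine continuousAt_id.mul ?_
  refine ContinuousAt.log (continuousAt_const.add continuousAt_id) ?_
  show (2 : ℝ) + u ≠ 0
  linarith

lemma continuous_Phi_norm {v : AddCircle T → ℂ} (hv : Continuous v) :
    Continuous (fun x => Phi ‖v x‖) :=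
  continuousOn_Phi.comp_continuous hv.norm (fun x => norm_nonneg (v x))

lemma integrable_Phi_norm {v : AddCircle T → ℂ} (hv : Continuous v) :
    Integrable (fun x => Phi ‖v x‖) haarAddCircle := by
  simpa using (continuous_Phi_norm hv).continuousOn.integrableOn_compact (μ := haarAddCircle)
    isCompact_univ

lemma memLlogL_of_continuous {v : AddCircle T → ℂ} (hv : Continuous v) : MemLlogL v :=
  ⟨hv.aestronglyMeasurable, integrable_Phi_norm hv⟩

/-- pointwise countable Jensen inequality (with values in `[0,∞]`) -/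
lemma ofReal_Phi_norm_tsum_le (c : ℕ → ℝ) (hc : ∀ m, 0 ≤ c m) (hcs : Summable c)
    (hc1 : ∑' m, c m ≤ 1) (z : ℕ → ℂ) :
    ENNReal.ofReal (Phi ‖∑' m, (c m : ℂ) * z m‖)
      ≤ ∑' m, ENNReal.ofReal (c m * Phi ‖z m‖) := by
  by_cases hs : Summable (fun m => (c m : ℂ) * z m)
  · have hsn : Summable (fun m => ‖(c m : ℂ) * z m‖) := hs.norm
    have hnorm : ∀ m, ‖(c m : ℂ) * z m‖ = c m * ‖z m‖ := by
      intro m
      rw [norm_mul, Complex.norm_real, Real.norm_of_nonneg (hc m)]
    have h1 : ‖∑' m, (c m : ℂ) * z m‖ ≤ ∑' m, c m * ‖z m‖ := by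
      refine (norm_tsum_le_tsum_norm hsn).trans (le_of_eq ?_)
      exact tsum_congr hnorm
    have hsn' : Summable (fun m => c m * ‖z m‖) := by
      simpa only [hnorm] using hsn
    have h0 : 0 ≤ ∑' m, c m * ‖z m‖ := tsum_nonneg fun m => mul_nonneg (hc m) (norm_nonneg _)
    have h2 : Phi ‖∑' m, (c m : ℂ) * z m‖ ≤ Phi (∑' m, c m * ‖z m‖) :=
      Phi_mono (norm_nonneg _) h1
    refine (ENNReal.ofReal_le_ofReal h2).trans ?_
    have htend : Tendsto (fun n => ENNReal.ofReal (Phi (∑ m ∈ Finset.range n, c m * ‖z m‖))) atTop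
        (𝓝 (ENNReal.ofReal (Phi (∑' m, c m * ‖z m‖)))) := by
      refine (ENNReal.continuous_ofReal.tendsto _).comp ?_
      exact (continuousAt_Phi h0).tendsto.comp hsn'.hasSum.tendsto_sum_nat
    refine le_of_tendsto' htend fun n => ?_
    have h3 : Phi (∑ m ∈ Finset.range n, c m * ‖z m‖)
        ≤ ∑ m ∈ Finset.range n, c m * Phi ‖z m‖ := by
      refine Phi_sum_le _ _ _ (fun i _ => hc i) (fun i _ => norm_nonneg _) ?_
      exact (hcs.sum_le_tsum _ (fun i _ => hc i)).trans hc1
    refine (ENNReal.ofReal_le_ofReal h3).trans ?_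
    rw [ENNReal.ofReal_sum_of_nonneg
      (fun i _ => mul_nonneg (hc i) (Phi_nonneg (norm_nonneg _)))]
    exact ENNReal.sum_le_tsum _
  · rw [tsum_eq_zero_of_not_summable hs]
    simp

theorem series_memLlogL (v : ℕ → AddCircle T → ℂ) (c : ℕ → ℝ)
    (hv : ∀ m, Continuous (v m))
    (hmod : ∀ m, ∫ x, Phi ‖v m x‖ ∂haarAddCircle ≤ 1)
    (hc : ∀ m, 0 ≤ c m) (hcs : Summable c) (hc1 : ∑' m, c m ≤ 1) :
    MemLlogL (fun x => ∑' m, (c m : ℂ) * v m x) ∧
      ∀ k : ℤ, HasSum (fun m => (c m : ℂ) * fourierCoeff (v m) k)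
        (fourierCoeff (fun x => ∑' m, (c m : ℂ) * v m x) k) := by
  have hl2 : 0 < Real.log 2 := Real.log_pos (by norm_num)
  have hcont : ∀ m, Continuous (fun x => (c m : ℂ) * v m x) := fun m =>
    continuous_const.mul (hv m)
  have hint : ∀ m, Integrable (fun x => (c m : ℂ) * v m x) haarAddCircle := fun m =>
    integrable_of_continuous (hcont m)
  have hnorm : ∀ m x, ‖(c m : ℂ) * v m x‖ = c m * ‖v m x‖ := by
    intro m x
    rw [norm_mul, Complex.norm_real, Real.norm_of_nonneg (hc m)]
  have hbound : ∀ m, ∫ x, ‖(c m : ℂ) * v m x‖ ∂haarAddCircle ≤ c m / Real.log 2 := by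
    intro m
    simp only [hnorm]
    rw [integral_const_mul, div_eq_mul_inv]
    refine mul_le_mul_of_nonneg_left ?_ (hc m)
    refine (integral_norm_le_of_Phi (memLlogL_of_continuous (hv m))).trans ?_
    rw [div_eq_mul_inv]
    exact mul_le_of_le_one_left (inv_nonneg.2 hl2.le) (hmod m)
  have hsumint : Summable (fun m => ∫ x, ‖(c m : ℂ) * v m x‖ ∂haarAddCircle) :=
    Summable.of_nonneg_of_le (fun m => integral_nonneg fun x => norm_nonneg _) hbound
      (hcs.div_const _)
  -- a.e. summability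
  have hae : ∀ᵐ x ∂(haarAddCircle : Measure (AddCircle T)),
      Summable (fun m => ‖(c m : ℂ) * v m x‖) := by
    refine summable_norm_of_tsum_eLpNorm_ne_top (p := 1) le_rfl
      (fun m => (hcont m).aestronglyMeasurable) ?_
    have : ∀ m, eLpNorm (fun x => (c m : ℂ) * v m x) 1 (haarAddCircle : Measure (AddCircle T))
        = ENNReal.ofReal (∫ x, ‖(c m : ℂ) * v m x‖ ∂haarAddCircle) := by
      intro m
      rw [eLpNorm_one_eq_lintegral_enorm,
        ofReal_integral_eq_lintegral_ofReal (hint m).norm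
          (Eventually.of_forall fun x => norm_nonneg _)]
      simp only [ofReal_norm]
    simp only [this]
    rw [← ENNReal.ofReal_tsum_of_nonneg (fun m => integral_nonneg fun x => norm_nonneg _) hsumint]
    exact ENNReal.ofReal_ne_top
  have hmeas : AEStronglyMeasurable (fun x => ∑' m, (c m : ℂ) * v m x)
      (haarAddCircle : Measure (AddCircle T)) := by
    refine aestronglyMeasurable_of_tendsto_ae atTop
      (f := fun n x => ∑ m ∈ Finset.range n, (c m : ℂ) * v m x)
      (fun n => (continuous_finsetSum _ fun m _ => hcont m).aestronglyMeasurable) ?_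
    filter_upwards [hae] with x hx
    exact (hx.of_norm).hasSum.tendsto_sum_nat
  refine ⟨⟨hmeas, ?_⟩, ?_⟩
  · -- the modular bound
    refine ⟨(measurable_Phi.comp_aemeasurable hmeas.norm.aemeasurable).aestronglyMeasurable, ?_⟩
    rw [hasFiniteIntegral_iff_ofReal (Eventually.of_forall fun x => Phi_nonneg (norm_nonneg _))]
    have h1 : ∫⁻ x, ENNReal.ofReal (Phi ‖∑' m, (c m : ℂ) * v m x‖) ∂haarAddCircle
        ≤ ∫⁻ x, ∑' m, ENNReal.ofReal (c m * Phi ‖v m x‖) ∂haarAddCircle :=
      lintegral_mono fun x => ofReal_Phi_norm_tsum_le c hc hcs hc1 (fun m => v m x)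
    have h2 : ∫⁻ x, ∑' m, ENNReal.ofReal (c m * Phi ‖v m x‖) ∂haarAddCircle
        = ∑' m, ENNReal.ofReal (c m * ∫ x, Phi ‖v m x‖ ∂haarAddCircle) := by
      rw [lintegral_tsum]
      · refine tsum_congr fun m => ?_
        rw [← integral_const_mul, ofReal_integral_eq_lintegral_ofReal
          ((integrable_Phi_norm (hv m)).const_mul _)
          (Eventually.of_forall fun x => mul_nonneg (hc m) (Phi_nonneg (norm_nonneg _)))]
      · intro m
        exact (ENNReal.continuous_ofReal.comp
          (continuous_const.mul (continuous_Phi_norm (hv m)))).measurable.aemeasurable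
    have h3 : ∑' m, ENNReal.ofReal (c m * ∫ x, Phi ‖v m x‖ ∂haarAddCircle)
        ≤ ∑' m, ENNReal.ofReal (c m) := by
      refine ENNReal.tsum_le_tsum fun m => ENNReal.ofReal_le_ofReal ?_
      exact mul_le_of_le_one_right (hc m) (hmod m)
    have h4 : ∑' m, ENNReal.ofReal (c m) < ⊤ := by
      rw [← ENNReal.ofReal_tsum_of_nonneg hc hcs]
      exact ENNReal.ofReal_lt_top
    exact (h1.trans (h2.le.trans h3)).trans_lt h4
  · intro k
    have key := hasSum_integral_of_summable_integral_norm
      (μ := (haarAddCircle : Measure (AddCircle T)))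
      (F := fun m x => fourier (-k) x • ((c m : ℂ) * v m x))
      (fun m => (hint m).fourier_smul _) ?_
    · have e1 : ∀ m, ∫ x, fourier (-k) x • ((c m : ℂ) * v m x) ∂haarAddCircle
          = (c m : ℂ) * fourierCoeff (v m) k := by
        intro m
        exact fourierCoeff.const_mul (v m) (c m : ℂ) k
      have e2 : ∫ x, ∑' m, fourier (-k) x • ((c m : ℂ) * v m x) ∂haarAddCircle
          = fourierCoeff (fun x => ∑' m, (c m : ℂ) * v m x) k := by
        unfold fourierCoeff
        congr 1
        ext x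
        simp only [smul_eq_mul]
        rw [tsum_mul_left]
      simp only [e1] at key
      rwa [e2] at key
    · refine hsumint.congr fun m => ?_
      congr 1
      ext x
      rw [norm_smul, norm_fourier_apply, one_mul]

end Vale.Agent.P091
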